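import Mathlib.Algebra.Category.ModuleCat.ProjectiveDimension
import Mathlib.CategoryTheory.Abelian.Projective.Dimension
import Mathlib.Algebra.Homology.ShortComplex.ModuleCat
import Mathlib.Algebra.Category.ModuleCat.Projective
import Mathlib.Tactic

/-! S0268, pure homological algebra part (helper5). -/

set_option autoImplicit false
set_option linter.unusedSectionVars false

namespace Crest.Agent.Fin268

open CategoryTheory

/-- projective dimension `< n`, for an honest module. -/
abbrev PdLT (A : Type) [Ring A] (M : Type) [AddCommGroup M] [Module A M] (n : ℕ) : Prop :=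
  HasProjectiveDimensionLT (ModuleCat.of A M) n

/-- projective dimension exactly `n`. -/
def PdEq (A : Type) [Ring A] (M : Type) [AddCommGroup M] [Module A M] (n : ℕ) : Prop :=
  PdLT A M (n + 1) ∧ ¬ PdLT A M n

variable {A : Type} [Ring A]

section basic

variable {M N P : Type} [AddCommGroup M] [Module A M] [AddCommGroup N] [Module A N]
  [AddCommGroup P] [Module A P]

theorem PdLT.mono {m n : ℕ} (h : m ≤ n) (hM : PdLT A M m) : PdLT A M n :=
  haveI := hM
  hasProjectiveDimensionLT_of_ge (ModuleCat.of A M) m n h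

theorem PdLT.equiv (e : M ≃ₗ[A] N) {n : ℕ} (hM : PdLT A M n) : PdLT A N n :=
  haveI := hM
  hasProjectiveDimensionLT_of_iso e.toModuleIso n

theorem PdLT.equiv_iff (e : M ≃ₗ[A] N) {n : ℕ} : PdLT A M n ↔ PdLT A N n :=
  ⟨PdLT.equiv e, PdLT.equiv e.symm⟩

theorem PdEq.equiv (e : M ≃ₗ[A] N) {n : ℕ} (hM : PdEq A M n) : PdEq A N n :=
  ⟨hM.1.equiv e, fun h => hM.2 (h.equiv e.symm)⟩

theorem pdLT_one_of_projective [Module.Projective A M] : PdLT A M 1 := by
  have h : Projective (ModuleCat.of A M) := inferInstance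
  exact projective_iff_hasProjectiveDimensionLT_one.1 h

theorem projective_of_pdLT_one (h : PdLT A M 1) : Module.Projective A M := by
  have h : Projective (ModuleCat.of A M) := projective_iff_hasProjectiveDimensionLT_one.2 h
  exact (IsProjective.iff_projective (R := A) (P := M)).2 h

/-- the short exact sequence of three linear maps -/
theorem shortExact_of (f : M →ₗ[A] N) (g : N →ₗ[A] P) (hf : Function.Injective f)
    (hg : Function.Surjective g) (h : Function.Exact f g) :
    (ShortComplex.mk (ModuleCat.ofHom f) (ModuleCat.ofHom g)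
      (by rw [← ModuleCat.ofHom_comp, h.linearMap_comp_eq_zero]; rfl)).ShortExact :=
  ModuleCat.shortComplex_shortExact _ h hf hg

variable (f : M →ₗ[A] N) (g : N →ₗ[A] P) (hf : Function.Injective f)
    (hg : Function.Surjective g) (h : Function.Exact f g)
include hf hg h

theorem pdLT_mid {n : ℕ} (h1 : PdLT A M n) (h3 : PdLT A P n) : PdLT A N n :=
  (shortExact_of f g hf hg h).hasProjectiveDimensionLT_X₂ n h1 h3

theorem pdLT_right {n : ℕ} (h1 : PdLT A M n) (h2 : PdLT A N (n + 1)) : PdLT A P (n + 1) :=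
  (shortExact_of f g hf hg h).hasProjectiveDimensionLT_X₃ n h1 h2

theorem pdLT_left {n : ℕ} (h2 : PdLT A N n) (h3 : PdLT A P (n + 1)) : PdLT A M n :=
  (shortExact_of f g hf hg h).hasProjectiveDimensionLT_X₁ n h2 h3

end basic

section syz

variable {M N : Type} [AddCommGroup M] [Module A M] [AddCommGroup N] [Module A N]

/-- a surjection from a projective: `pd N < n+2 ↔ pd ker < n+1` -/
theorem pdLT_ker_iff [Module.Projective A M] (f : M →ₗ[A] N) (hf : Function.Surjective f) (n : ℕ) :
    PdLT A N (n + 2) ↔ PdLT A (LinearMap.ker f) (n + 1) := by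
  have hex : Function.Exact (LinearMap.ker f).subtype f := by
    intro x; constructor
    · intro hx; exact ⟨⟨x, hx⟩, rfl⟩
    · rintro ⟨y, rfl⟩; exact y.2
  constructor
  · intro hN
    exact pdLT_left _ f (Submodule.injective_subtype _) hf hex
      (pdLT_one_of_projective.mono (by omega)) hN
  · intro hK
    exact pdLT_right _ f (Submodule.injective_subtype _) hf hex hK
      (pdLT_one_of_projective.mono (by omega))

end syz

section step

variable {F E F' C0 C1 C2 C3 C4 : Type}
  [AddCommGroup F] [Module A F] [AddCommGroup E] [Module A E] [AddCommGroup F'] [Module A F']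
  [AddCommGroup C0] [Module A C0] [AddCommGroup C1] [Module A C1] [AddCommGroup C2] [Module A C2]
  [AddCommGroup C3] [Module A C3] [AddCommGroup C4] [Module A C4]
  [Module.Projective A C0] [Module.Projective A C1] [Module.Projective A C2]
  [Module.Projective A C3] [Module.Projective A C4]

/-- `range d2` has projective dimension `≤ 2`. -/
theorem pdLT_range (d2 : C2 →ₗ[A] C1) (d3 : C3 →ₗ[A] C2) (d4 : C4 →ₗ[A] C3)
    (h4 : Function.Injective d4) (h43 : Function.Exact d4 d3) (h32 : Function.Exact d3 d2) :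
    PdLT A (LinearMap.range d2) 3 := by
  -- ker d2 = range d3, ker d3 = range d4 ≅ C4
  have k3 : PdLT A (LinearMap.ker d3) 1 := by
    have e : C4 ≃ₗ[A] LinearMap.ker d3 := by
      have e1 := LinearEquiv.ofInjective d4 h4
      have e2 : LinearMap.range d4 = LinearMap.ker d3 := (LinearMap.exact_iff.1 h43).symm
      exact e1.trans (LinearEquiv.ofEq _ _ e2)
    exact pdLT_one_of_projective.equiv e
  have r3 : PdLT A (LinearMap.range d3) 2 := by
    have := (pdLT_ker_iff (A := A) d3.rangeRestrict d3.surjective_rangeRestrict 0)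
    rw [LinearMap.ker_rangeRestrict] at this
    exact this.2 k3
  have k2 : PdLT A (LinearMap.ker d2) 2 := by
    have e2 : LinearMap.range d3 = LinearMap.ker d2 := (LinearMap.exact_iff.1 h32).symm
    exact r3.equiv (LinearEquiv.ofEq _ _ e2)
  have := (pdLT_ker_iff (A := A) d2.rangeRestrict d2.surjective_rangeRestrict 1)
  rw [LinearMap.ker_rangeRestrict] at this
  exact this.2 k2

/-- The inductive step `pd F' = pd F + 2`.  `q` identifies `H_1 = ker d1 / range d2` with `F`. -/
theorem step_pd
    (d0 : C0 →ₗ[A] E) (d1 : C1 →ₗ[A] C0) (d2 : C2 →ₗ[A] C1) (d3 : C3 →ₗ[A] C2)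
    (d4 : C4 →ₗ[A] C3)
    (h0 : Function.Surjective d0) (h10 : Function.Exact d1 d0)
    (h21 : ∀ y, d1 (d2 y) = 0)
    (h32 : Function.Exact d3 d2) (h43 : Function.Exact d4 d3) (h4 : Function.Injective d4)
    (q : LinearMap.ker d1 →ₗ[A] F) (hq : Function.Surjective q)
    (hq0 : ∀ z : LinearMap.ker d1, q z = 0 ↔ ∃ y, d2 y = (z : C1))
    (i : F →ₗ[A] E) (p : E →ₗ[A] F') (hi : Function.Injective i) (hp : Function.Surjective p)
    (hip : Function.Exact i p) {r : ℕ} (hr : 4 ≤ r) (hF : PdEq A F r) : PdEq A F' (r + 2) := by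
  have hB : PdLT A (LinearMap.range d2) 3 := pdLT_range d2 d3 d4 h4 h43 h32
  -- 0 → range d2 → ker d1 → F → 0
  let j : LinearMap.range d2 →ₗ[A] LinearMap.ker d1 :=
    Submodule.inclusion (by rintro _ ⟨y, rfl⟩; exact h21 y)
  have hj : Function.Injective j := Submodule.inclusion_injective _
  have hjq : Function.Exact j q := by
    intro z
    rw [hq0]
    constructor
    · rintro ⟨y, hy⟩
      exact ⟨⟨z, y, hy⟩, rfl⟩
    · rintro ⟨⟨z', y, hy⟩, rfl⟩
      exact ⟨y, hy⟩
  obtain ⟨r, rfl⟩ : ∃ s, r = s + 4 := ⟨r - 4, by omega⟩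
  -- Z = ker d1
  have hZ1 : PdLT A (LinearMap.ker d1) (r + 5) :=
    pdLT_mid j q hj hq hjq (hB.mono (by omega)) hF.1
  have hZ2 : ¬ PdLT A (LinearMap.ker d1) (r + 4) := fun hZ =>
    hF.2 (pdLT_right (n := r + 3) j q hj hq hjq (hB.mono (by omega)) hZ)
  -- ker d0 = range d1
  have hk0 : ∀ n, PdLT A (LinearMap.ker d0) (n + 2) ↔ PdLT A (LinearMap.ker d1) (n + 1) := by
    intro n
    have := (pdLT_ker_iff (A := A) d1.rangeRestrict d1.surjective_rangeRestrict n)
    rw [LinearMap.ker_rangeRestrict] at this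
    rw [← this]
    have e2 : LinearMap.ker d0 = LinearMap.range d1 := LinearMap.exact_iff.1 h10
    exact PdLT.equiv_iff (LinearEquiv.ofEq _ _ e2)
  have hE : ∀ n, PdLT A E (n + 3) ↔ PdLT A (LinearMap.ker d1) (n + 1) := by
    intro n
    rw [← hk0 n]
    exact pdLT_ker_iff d0 h0 (n + 1)
  have hE1 : PdLT A E (r + 7) := (hE (r + 4)).2 hZ1
  have hE2 : ¬ PdLT A E (r + 6) := fun h => hZ2 ((hE (r + 3)).1 h)
  constructor
  · exact pdLT_right (n := r + 6) i p hi hp hip (hF.1.mono (by omega)) hE1
  · intro h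
    exact hE2 (pdLT_mid i p hi hp hip (hF.1.mono (by omega)) h)

/-- The base case: an exact complex of projectives of length 4 with last map not split. -/
theorem base_pd
    (d0 : C0 →ₗ[A] E) (d1 : C1 →ₗ[A] C0) (d2 : C2 →ₗ[A] C1) (d3 : C3 →ₗ[A] C2)
    (d4 : C4 →ₗ[A] C3)
    (h0 : Function.Surjective d0) (h10 : Function.Exact d1 d0)
    (h21 : Function.Exact d2 d1)
    (h32 : Function.Exact d3 d2) (h43 : Function.Exact d4 d3) (h4 : Function.Injective d4)
    (hns : ¬ ∃ s : C3 →ₗ[A] C4, s ∘ₗ d4 = LinearMap.id) : PdEq A E 4 := by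
  have hk : ∀ {X Y Z : Type} [AddCommGroup X] [Module A X] [AddCommGroup Y] [Module A Y]
      [AddCommGroup Z] [Module A Z] [Module.Projective A X] (d : X →ₗ[A] Y) (d' : Y →ₗ[A] Z)
      (_ : Function.Exact d d') (n : ℕ),
      PdLT A (LinearMap.ker d') (n + 2) ↔ PdLT A (LinearMap.ker d) (n + 1) := by
    intro X Y Z _ _ _ _ _ _ _ d d' hdd' n
    have := (pdLT_ker_iff (A := A) d.rangeRestrict d.surjective_rangeRestrict n)
    rw [LinearMap.ker_rangeRestrict] at this
    rw [← this]
    have e2 : LinearMap.ker d' = LinearMap.range d := LinearMap.exact_iff.1 hdd'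
    exact PdLT.equiv_iff (LinearEquiv.ofEq _ _ e2)
  have k3 : PdLT A (LinearMap.ker d3) 1 := by
    have e : C4 ≃ₗ[A] LinearMap.ker d3 := by
      have e1 := LinearEquiv.ofInjective d4 h4
      have e2 : LinearMap.range d4 = LinearMap.ker d3 := (LinearMap.exact_iff.1 h43).symm
      exact e1.trans (LinearEquiv.ofEq _ _ e2)
    exact pdLT_one_of_projective.equiv e
  constructor
  · exact (pdLT_ker_iff d0 h0 3).2 ((hk d1 d0 h10 2).2 ((hk d2 d1 h21 1).2 ((hk d3 d2 h32 0).2 k3)))
  · intro h
    have h1 := (pdLT_ker_iff d0 h0 2).1 h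
    have h2 := (hk d1 d0 h10 1).1 h1
    have h3 := (hk d2 d1 h21 0).1 h2
    -- ker d2 = range d3 is projective, so ker d3 is a direct summand
    have hP := projective_of_pdLT_one h3
    have e2 : LinearMap.ker d2 = LinearMap.range d3 := LinearMap.exact_iff.1 h32
    have hP' : Module.Projective A (LinearMap.range d3) :=
      Module.Projective.of_equiv (LinearEquiv.ofEq _ _ e2)
    obtain ⟨t, ht⟩ := Module.projective_lifting_property d3.rangeRestrict
      (LinearMap.id (R := A) (M := LinearMap.range d3)) d3.surjective_rangeRestrict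
    -- the projection C3 → range d4
    have hmem : ∀ x : C3, x - t (d3.rangeRestrict x) ∈ LinearMap.range d4 := by
      intro x
      rw [← LinearMap.exact_iff.1 h43, LinearMap.mem_ker, map_sub, sub_eq_zero]
      have := congrArg Subtype.val (LinearMap.congr_fun ht (d3.rangeRestrict x))
      simpa using this.symm
    apply hns
    let π : C3 →ₗ[A] LinearMap.range d4 :=
      LinearMap.codRestrict _ (LinearMap.id - t ∘ₗ d3.rangeRestrict) (fun x => by
        simpa using hmem x)
    refine ⟨(LinearEquiv.ofInjective d4 h4).symm.toLinearMap ∘ₗ π, ?_⟩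
    ext x
    apply h4
    have hx : d3 (d4 x) = 0 := h43.apply_apply_eq_zero x
    have hr : d3.rangeRestrict (d4 x) = 0 := Subtype.ext (by simpa using hx)
    have hπ : π (d4 x) = LinearEquiv.ofInjective d4 h4 x := by
      apply Subtype.ext
      simp [π, hr]
    simp only [LinearMap.comp_apply, LinearEquiv.coe_coe, hπ, LinearEquiv.symm_apply_apply,
      LinearMap.id_apply]

end step

/-- Final assembly of the homological algebra. -/
theorem unbounded_of_steps (F : ℕ → Type) [∀ n, AddCommGroup (F n)] [∀ n, Module A (F n)]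
    [∀ n, Module.Finite A (F n)]
    (base : PdEq A (F 1) 4)
    (step : ∀ n r, 1 ≤ n → 4 ≤ r → PdEq A (F n) r → PdEq A (F (n + 1)) (r + 2)) :
    ∀ k : ℕ, ∃ N : ModuleCat.{0} A, Module.Finite A N ∧
        ¬ CategoryTheory.HasProjectiveDimensionLT N k ∧
        ∃ n : ℕ, CategoryTheory.HasProjectiveDimensionLT N n := by
  have key : ∀ n, PdEq A (F (n + 1)) (2 * n + 4) := by
    intro n
    induction n with
    | zero => simpa using base
    | succ n ih => exact step (n + 1) (2 * n + 4) (by omega) (by omega) ih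
  intro k
  refine ⟨ModuleCat.of A (F (k + 1)), inferInstanceAs (Module.Finite A (F (k + 1))), ?_, ?_⟩
  · intro h
    exact (key k).2 (PdLT.mono (by omega) h)
  · exact ⟨_, (key k).1⟩

end Crest.Agent.Fin268
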